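import Vale.Agent.P224.R2.H797.A.Rows
import Vale.Agent.P224.R2.H797.LawE

/-!
Certificate A: the law is negative for lengths of the mean normal between `21/5000` and `3/100`.
-/

namespace Vale.Agent.P224.R2.H797.A

open Vale.Agent.P224.UE Vale.Agent.P224.POS Vale.Agent.P224.PO Vale.Agent.P224.R2.H178
  Vale.Agent.P224.R2.H797

/-- the value of the rows -/
noncomputable def qv : PE := PE.add (PE.add (PE.c (-576862307627616)) (PE.mul (PE.c (43495413945056)) (PE.v 0)))
  (PE.mul (PE.c (0)) (PE.v 1))

set_option maxRecDepth 100000 in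
lemma qv_chk : chk [] (PE.sub (lvU 3 rows) qv) = true := by decide +kernel

lemma hval_rows (ν ρ : ℝ) : hvalU 3 (rlH 477102080000000 rows) ν ρ
    = (-(18026947113363 / 59637760000000)) + (1359231685783 / 59637760000000) * ν + 0 * ρ := by
  rw [hvalU_eq (by norm_num) qv_chk]
  unfold qv
  simp only [PE.ev_add, PE.ev_mul, PE.ev_c, PE.ev_v]
  have e0 : ([ν, ρ] : List ℝ).getD 0 0 = ν := rfl
  have e1 : ([ν, ρ] : List ℝ).getD 1 0 = ρ := rfl
  rw [e0, e1]
  push_cast
  ring

/-- **The law is negative.** -/
theorem hneg {ν ρ : ℝ} (h1 : (21 / 5000) ≤ ν) (h2 : ν ≤ (3 / 100)) (hr1 : ν ^ 2 ≤ ρ) (hr2 : ρ ≤ 1) :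
    hvalU 3 (rlH 477102080000000 rows) ν ρ ≤ 0 ∧
      (53889426297 / 2129920000000) + ((465030848509472 / 477102080000000) + (0 / 477102080000000) + (-47344056655552 / 477102080000000) * ν + (320826005539288 / 477102080000000) * ν ^ 2 + ((0 / 477102080000000) + (-3430118487664 / 477102080000000) * ν) * ρ + ((0 / 477102080000000) + (0 / 477102080000000)) * ν ^ 2
        + (0 / 477102080000000) * ((1 - ρ) / 4)) + 330797 / 100000 * hvalU 3 (rlH 477102080000000 rows) ν ρ < 0 := by
  rw [hval_rows]
  have ha := sub_nonneg.2 h1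
  have hb := sub_nonneg.2 h2
  have hab := mul_nonneg ha hb
  have haa := mul_nonneg hab ha
  have hbb := mul_nonneg hab hb
  constructor
  · have e1 : (-(18026947113363 / 59637760000000)) + (1359231685783 / 59637760000000) * ν + 0 * ν ^ 2 < 0 := by
      nlinarith
    have e2 : (-(18026947113363 / 59637760000000)) + (1359231685783 / 59637760000000) * ν + 0 * 1 < 0 := by
      linarith
    exact (aff_neg e1 e2 hr1 hr2).le
  · have e1 : ((515975740859689 / 5963776000000000000) + (-(20310134890348707 / 851968000000000000)) * ν + (40103250692411 / 59637760000000) * ν ^ 2) + (0 + (-(214382405479 / 29818880000000)) * ν) * ν ^ 2 < 0 := by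
      nlinarith
    have e2 : ((515975740859689 / 5963776000000000000) + (-(20310134890348707 / 851968000000000000)) * ν + (40103250692411 / 59637760000000) * ν ^ 2) + (0 + (-(214382405479 / 29818880000000)) * ν) * 1 < 0 := by
      nlinarith
    have e3 := aff_neg e1 e2 hr1 hr2
    refine lt_of_eq_of_lt ?_ e3
    ring

end Vale.Agent.P224.R2.H797.A
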